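import Vale.Agent.Lib.P254.Moment

namespace Vale.Agent.Lib.P254

open MeasureTheory Set
open scoped Pointwise

section General

variable {κ : Type*} [Fintype κ]

theorem vol_eq_integral (K : Set (κ → ℝ)) : vol K = ∫ _x in K, (1 : ℝ) := by
  simp [vol, Measure.real]

theorem integrableOn_coord {K : Set (κ → ℝ)} (hK : IsCompact K) (a : κ) :
    IntegrableOn (fun z : κ → ℝ => z a) K volume :=
  (continuous_apply a).continuousOn.integrableOn_compact hK

theorem integrableOn_coord2 {K : Set (κ → ℝ)} (hK : IsCompact K) (a b : κ) :
    IntegrableOn (fun z : κ → ℝ => z a * z b) K volume :=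
  ((continuous_apply a).mul (continuous_apply b)).continuousOn.integrableOn_compact hK

theorem integrableOn_one {K : Set (κ → ℝ)} (hK : IsCompact K) :
    IntegrableOn (fun _ : κ → ℝ => (1 : ℝ)) K volume :=
  continuous_const.continuousOn.integrableOn_compact hK

theorem cov_eq {K : Set (κ → ℝ)} (hK : IsCompact K) (hV : vol K ≠ 0) (a b : κ) :
    covMatrix K a b = (vol K)⁻¹ * (∫ z in K, z a * z b) - centroid K a * centroid K b := by
  unfold covMatrix
  set ca := centroid K a with hca
  set cb := centroid K b with hcb
  have e : ∀ z : κ → ℝ, (z a - ca) * (z b - cb)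
      = z a * z b - cb * z a - ca * z b + ca * cb * 1 := by intro z; ring
  simp_rw [e]
  rw [integral_add, integral_sub, integral_sub, integral_const_mul, integral_const_mul,
    integral_const_mul, ← vol_eq_integral]
  · have h1 : ∫ z in K, z a = vol K * ca := by rw [hca]; unfold centroid; field_simp
    have h2 : ∫ z in K, z b = vol K * cb := by rw [hcb]; unfold centroid; field_simp
    rw [h1, h2]
    field_simp
    ring
  · exact integrableOn_coord2 hK a b
  · exact (integrableOn_coord hK a).const_mul cb
  · exact (integrableOn_coord2 hK a b).sub ((integrableOn_coord hK a).const_mul cb)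
  · exact (integrableOn_coord hK b).const_mul ca
  · exact ((integrableOn_coord2 hK a b).sub ((integrableOn_coord hK a).const_mul cb)).sub
      ((integrableOn_coord hK b).const_mul ca)
  · exact (integrableOn_one hK).const_mul (ca * cb)

theorem vol_pos {K : Set (κ → ℝ)} (hK : IsConvexBody K) : 0 < vol K := by
  unfold vol
  apply ENNReal.toReal_pos
  · have : 0 < volume (interior K) := isOpen_interior.measure_pos volume hK.2.2
    exact (this.trans_le (measure_mono interior_subset)).ne'
  · exact hK.1.measure_lt_top.ne

theorem cov_posSemidef {K : Set (κ → ℝ)} (hK : IsCompact K) : (covMatrix K).PosSemidef := by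
  classical
  have hvol : 0 ≤ vol K := ENNReal.toReal_nonneg
  refine Matrix.PosSemidef.of_dotProduct_mulVec_nonneg ?_ ?_
  · ext a b
    simp only [Matrix.conjTranspose_apply, star_trivial, covMatrix]
    congr 1
    refine integral_congr_ae (Filter.Eventually.of_forall fun z => ?_)
    simp only; ring
  · intro u
    simp only [star_trivial]
    have hint : ∀ a b, IntegrableOn
        (fun z : κ → ℝ => (z a - centroid K a) * (z b - centroid K b)) K volume := fun a b =>
      (((continuous_apply a).sub continuous_const).mul
        ((continuous_apply b).sub continuous_const)).continuousOn.integrableOn_compact hK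
    have : u ⬝ᵥ (covMatrix K).mulVec u
        = (vol K)⁻¹ * ∫ z in K, (∑ a, u a * (z a - centroid K a)) ^ 2 := by
      simp only [dotProduct, Matrix.mulVec, covMatrix]
      have e : ∀ z : κ → ℝ, (∑ a, u a * (z a - centroid K a)) ^ 2
          = ∑ a, ∑ b, u a * (u b * ((z a - centroid K a) * (z b - centroid K b))) := by
        intro z
        rw [sq, Finset.sum_mul_sum]
        refine Finset.sum_congr rfl fun a _ => Finset.sum_congr rfl fun b _ => ?_
        ring
      simp_rw [e]
      rw [integral_finset_sum _ (fun a _ => integrable_finset_sum _ (fun b _ =>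
        ((hint a b).const_mul (u b)).const_mul (u a)))]
      rw [Finset.mul_sum]
      refine Finset.sum_congr rfl fun a _ => ?_
      rw [integral_finset_sum _ (fun b _ => ((hint a b).const_mul (u b)).const_mul (u a))]
      rw [Finset.mul_sum, Finset.mul_sum]
      refine Finset.sum_congr rfl fun b _ => ?_
      rw [integral_const_mul, integral_const_mul]
      ring
    rw [this]
    exact mul_nonneg (inv_nonneg.mpr hvol) (integral_nonneg fun z => sq_nonneg _)

end General

end Vale.Agent.Lib.P254
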