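import Mathlib

namespace Vale.Agent.Lib.P254

open MeasureTheory

variable {ι : Type*} [Fintype ι]

/-- Lebesgue volume of a subset of `ℝ^ι`. -/
noncomputable def vol (K : Set (ι → ℝ)) : ℝ := (volume K).toReal

/-- Centroid of `K`. -/
noncomputable def centroid (K : Set (ι → ℝ)) : ι → ℝ :=
  fun i => (vol K)⁻¹ * ∫ x in K, x i

/-- Covariance matrix of the uniform distribution on `K`. -/
noncomputable def covMatrix (K : Set (ι → ℝ)) : Matrix ι ι ℝ :=
  fun i j => (vol K)⁻¹ * ∫ x in K, (x i - centroid K i) * (x j - centroid K j)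

/-- Isotropic constant `L_K = (det Σ_K / |K|^2)^(1/(2n))`, `n = |ι|`. -/
noncomputable def isoConst [DecidableEq ι] (K : Set (ι → ℝ)) : ℝ :=
  ((covMatrix K).det / (vol K) ^ 2) ^ (1 / (2 * (Fintype.card ι : ℝ)))

/-- Convex body: compact, convex, nonempty interior. -/
def IsConvexBody (K : Set (ι → ℝ)) : Prop :=
  IsCompact K ∧ Convex ℝ K ∧ (interior K).Nonempty

/-- A simplex in `ℝ^ι`: convex hull of `|ι| + 1` affinely independent points. -/
def IsSimplex (S : Set (ι → ℝ)) : Prop :=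
  ∃ v : Option ι → (ι → ℝ), AffineIndependent ℝ v ∧ S = convexHull ℝ (Set.range v)

/-- The point `(x, 1)` of `ℝ^(ι ⊕ Unit)`. -/
def lift (x : ι → ℝ) : ι ⊕ Unit → ℝ := Sum.elim x (fun _ => 1)

/-- The pyramid in `ℝ^(ι ⊕ Unit)` with apex `0` and base `B × {1}`. -/
def pyramid (B : Set (ι → ℝ)) : Set (ι ⊕ Unit → ℝ) :=
  convexHull ℝ (insert 0 (lift '' B))

end Vale.Agent.Lib.P254
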