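import Vale.Agent.Lib.P254.Pyramid

namespace Vale.Agent.Lib.P254

open MeasureTheory Set
open scoped Pointwise

section Body

variable {ι : Type*} [Fintype ι]

theorem isConvexBody_cone {B : Set (ι → ℝ)} (hB : IsConvexBody B) : IsConvexBody (cone B) := by
  refine ⟨isCompact_cone hB.1, convex_cone hB.2.1, ?_⟩
  obtain ⟨x₀, hx₀⟩ := hB.2.2
  let f : (ι ⊕ Unit → ℝ) → (ι → ℝ) := fun z => (z (Sum.inr ()))⁻¹ • (fun i => z (Sum.inl i))
  let s : Set (ι ⊕ Unit → ℝ) := {z | 0 < z (Sum.inr ())} ∩ {z | z (Sum.inr ()) < 1}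
  have hs : IsOpen s :=
    (isOpen_lt continuous_const (continuous_apply _)).inter
      (isOpen_lt (continuous_apply _) continuous_const)
  have hf : ContinuousOn f s := by
    have h1 : ContinuousOn (fun z : ι ⊕ Unit → ℝ => (z (Sum.inr ()))⁻¹) s := by
      apply ContinuousOn.inv₀ (continuous_apply _).continuousOn
      intro z hz
      exact hz.1.ne'
    have h2 : ContinuousOn (fun z : ι ⊕ Unit → ℝ => (fun i => z (Sum.inl i) : ι → ℝ)) s :=
      (continuous_pi fun i => continuous_apply _).continuousOn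
    exact h1.smul h2
  have hU : IsOpen (s ∩ f ⁻¹' interior B) := hf.isOpen_inter_preimage hs isOpen_interior
  have hsub : s ∩ f ⁻¹' interior B ⊆ cone B := by
    rintro z ⟨⟨h0, h1⟩, hz⟩
    refine ⟨z (Sum.inr ()), ⟨le_of_lt h0, le_of_lt h1⟩, f z, interior_subset hz, ?_⟩
    have h0' : z (Sum.inr ()) ≠ 0 := ne_of_gt h0
    funext a
    rcases a with i | u
    · simp only [f, lift, Pi.smul_apply, Sum.elim_inl, smul_eq_mul]
      field_simp
    · simp [lift]
  refine ⟨(1 / 2 : ℝ) • lift x₀, interior_maximal hsub hU ⟨⟨?_, ?_⟩, ?_⟩⟩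
  · simp [lift]
  · simp [lift]; norm_num
  · have : f ((1 / 2 : ℝ) • lift x₀) = x₀ := by
      funext i
      simp [f, lift]
    rw [mem_preimage, this]
    exact hx₀

theorem isConvexBody_pyramid {B : Set (ι → ℝ)} (hB : IsConvexBody B) :
    IsConvexBody (pyramid B) := by
  rw [pyramid_eq_cone hB.2.1 (hB.2.2.mono interior_subset)]
  exact isConvexBody_cone hB

end Body

section Simplex

variable {ι : Type*} [Fintype ι]

theorem isConvexBody_of_isSimplex {S : Set (ι → ℝ)} (hS : IsSimplex S) : IsConvexBody S := by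
  obtain ⟨v, hv, rfl⟩ := hS
  refine ⟨(finite_range v).isCompact_convexHull (𝕜 := ℝ), convex_convexHull ℝ _, ?_⟩
  rw [interior_convexHull_nonempty_iff_affineSpan_eq_top,
    hv.affineSpan_eq_top_iff_card_eq_finrank_add_one]
  simp

/-- vertices of the pyramid over a simplex -/
def liftVerts (v : Option ι → (ι → ℝ)) : Option (ι ⊕ Unit) → (ι ⊕ Unit → ℝ)
  | none => 0
  | some (Sum.inl i) => lift (v (some i))
  | some (Sum.inr _) => lift (v none)

theorem affineIndependent_liftVerts {v : Option ι → (ι → ℝ)} (hv : AffineIndependent ℝ v) :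
    AffineIndependent ℝ (liftVerts v) := by
  classical
  rw [affineIndependent_iff] at hv ⊢
  intro s w hw0 hw1
  let w' : Option (ι ⊕ Unit) → ℝ := fun e => if e ∈ s then w e else 0
  have h0 : ∑ e, w' e = 0 := by
    simp only [w', Finset.sum_ite_mem, Finset.univ_inter]; exact hw0
  have h1 : ∑ e, w' e • liftVerts v e = 0 := by
    have : ∀ e, w' e • liftVerts v e = if e ∈ s then w e • liftVerts v e else 0 := by
      intro e; simp only [w']; split_ifs <;> simp
    simp only [this, Finset.sum_ite_mem, Finset.univ_inter]; exact hw1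
  let W : Option ι → ℝ := fun k => match k with
    | none => w' (some (Sum.inr ()))
    | some i => w' (some (Sum.inl i))
  rw [Fintype.sum_option, Fintype.sum_sum_type] at h0 h1
  simp only [Finset.univ_unique, Finset.sum_singleton, liftVerts, smul_zero, zero_add] at h0 h1
  have hW1 : ∑ k, W k • lift (v k) = 0 := by
    rw [Fintype.sum_option]
    simp only [W]
    rw [add_comm]
    exact h1
  have hWs : ∑ k, W k = 0 := by
    have := congrFun hW1 (Sum.inr ())
    simpa [lift, Finset.sum_apply] using this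
  have hWv : ∑ k, W k • v k = 0 := by
    funext i
    have := congrFun hW1 (Sum.inl i)
    simpa [lift, Finset.sum_apply] using this
  have hWz := hv Finset.univ W hWs hWv
  have hz1 : ∀ i, w' (some (Sum.inl i)) = 0 := fun i => hWz (some i) (Finset.mem_univ _)
  have hz2 : w' (some (Sum.inr ())) = 0 := hWz none (Finset.mem_univ _)
  have hz0 : w' none = 0 := by
    simp only [hz1, Finset.sum_const_zero, zero_add] at h0
    have hd : (default : Unit) = () := rfl
    rw [hd, hz2] at h0
    simpa using h0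
  intro e he
  have : w' e = w e := by simp only [w', if_pos he]
  rw [← this]
  rcases e with _ | (i | u)
  · exact hz0
  · exact hz1 i
  · exact hz2

theorem pyramid_simplex (v : Option ι → (ι → ℝ)) :
    pyramid (convexHull ℝ (range v)) = convexHull ℝ (range (liftVerts v)) := by
  unfold pyramid
  apply Subset.antisymm
  · apply convexHull_min _ (convex_convexHull ℝ _)
    intro z hz
    rcases hz with rfl | ⟨x, hx, rfl⟩
    · exact subset_convexHull ℝ _ ⟨none, rfl⟩
    · have hconv : Convex ℝ (lift ⁻¹' convexHull ℝ (range (liftVerts v))) := by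
        intro x hx y hy a b ha hb hab
        rw [mem_preimage, lift_combo a b hab]
        exact (convex_convexHull ℝ _) hx hy ha hb hab
      have hsub : range v ⊆ lift ⁻¹' convexHull ℝ (range (liftVerts v)) := by
        rintro _ ⟨k, rfl⟩
        apply subset_convexHull ℝ _
        rcases k with _ | i
        · exact ⟨some (Sum.inr ()), rfl⟩
        · exact ⟨some (Sum.inl i), rfl⟩
      exact convexHull_min hsub hconv hx
  · apply convexHull_min _ (convex_convexHull ℝ _)
    rintro _ ⟨e, rfl⟩
    apply subset_convexHull ℝ _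
    rcases e with _ | (i | u)
    · exact mem_insert _ _
    · exact mem_insert_of_mem _ ⟨v (some i), subset_convexHull ℝ _ ⟨_, rfl⟩, rfl⟩
    · exact mem_insert_of_mem _ ⟨v none, subset_convexHull ℝ _ ⟨_, rfl⟩, rfl⟩

theorem isSimplex_pyramid {S : Set (ι → ℝ)} (hS : IsSimplex S) : IsSimplex (pyramid S) := by
  obtain ⟨v, hv, rfl⟩ := hS
  exact ⟨liftVerts v, affineIndependent_liftVerts hv, pyramid_simplex v⟩

end Simplex

section Iso

variable {κ : Type*} [Fintype κ] [DecidableEq κ]

/-- the affine invariant `det Σ_K / |K|^2 = L_K^(2n)` -/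
noncomputable def ratio (K : Set (κ → ℝ)) : ℝ := (covMatrix K).det / (vol K) ^ 2

theorem ratio_nonneg {K : Set (κ → ℝ)} (hK : IsCompact K) : 0 ≤ ratio K :=
  div_nonneg (cov_posSemidef hK).det_nonneg (sq_nonneg _)

theorem isoConst_pow [Nonempty κ] {K : Set (κ → ℝ)} (hK : IsCompact K) :
    isoConst K ^ (2 * Fintype.card κ) = ratio K := by
  have hn : (0 : ℝ) < Fintype.card κ := by exact_mod_cast Fintype.card_pos
  have hr : isoConst K = ratio K ^ (1 / (2 * (Fintype.card κ : ℝ))) := rfl
  rw [hr, ← Real.rpow_natCast, ← Real.rpow_mul (ratio_nonneg hK)]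
  have : 1 / (2 * (Fintype.card κ : ℝ)) * ((2 * Fintype.card κ : ℕ) : ℝ) = 1 := by
    push_cast; field_simp
  rw [this, Real.rpow_one]

theorem isoConst_le_iff [Nonempty κ] {K K' : Set (κ → ℝ)} (hK : IsCompact K) (hK' : IsCompact K') :
    isoConst K ≤ isoConst K' ↔ ratio K ≤ ratio K' := by
  have hn : (0 : ℝ) < Fintype.card κ := by exact_mod_cast Fintype.card_pos
  unfold isoConst
  exact Real.rpow_le_rpow_iff (ratio_nonneg hK) (ratio_nonneg hK') (by positivity)

end Iso

section Main

variable {ι : Type*} [Fintype ι] [DecidableEq ι]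

/-- the dimensional constant in the pyramid formula -/
noncomputable def pyrConst (n : ℕ) : ℝ :=
  ((n : ℝ) + 1) ^ (n + 3) / (((n : ℝ) + 3) ^ (n + 1) * ((n : ℝ) + 2) ^ 2)

theorem pyrConst_pos (n : ℕ) : 0 < pyrConst n := by unfold pyrConst; positivity

theorem ratio_pyramid {B : Set (ι → ℝ)} (hB : IsConvexBody B) :
    ratio (pyramid B) = pyrConst (Fintype.card ι) * ratio B := by
  rw [pyramid_eq_cone hB.2.1 (hB.2.2.mono interior_subset)]
  unfold ratio pyrConst
  rw [det_cov_cone hB, vol_cone hB.1]
  have hV := vol_pos hB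
  have hn0 : (0 : ℝ) ≤ Fintype.card ι := Nat.cast_nonneg _
  rw [div_pow, pow_succ ((Fintype.card ι : ℝ) + 3) (Fintype.card ι), pow_add]
  field_simp

end Main

end Vale.Agent.Lib.P254
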