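import Vale.Agent.Lib.P254.Defs

namespace Vale.Agent.Lib.P254

open MeasureTheory Set
open scoped Pointwise

variable {ι : Type*} [Fintype ι]

/-- the cone `{ s • (x,1) : 0 ≤ s ≤ 1, x ∈ B }` -/
def cone (B : Set (ι → ℝ)) : Set (ι ⊕ Unit → ℝ) :=
  {z | ∃ s ∈ Icc (0 : ℝ) 1, ∃ x ∈ B, z = s • lift x}

/-- gluing map `(x, s) ↦ (x, s)` from the product to `ℝ^(ι ⊕ Unit)` -/
def glue (p : (ι → ℝ) × ℝ) : ι ⊕ Unit → ℝ := Sum.elim p.1 (fun _ => p.2)

theorem continuous_lift : Continuous (lift : (ι → ℝ) → (ι ⊕ Unit → ℝ)) := by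
  refine continuous_pi fun a => ?_
  rcases a with i | u
  · exact continuous_apply i
  · exact continuous_const

theorem isCompact_cone {B : Set (ι → ℝ)} (hB : IsCompact B) : IsCompact (cone B) := by
  have : cone B = (fun p : ℝ × (ι → ℝ) => p.1 • lift p.2) '' (Icc (0 : ℝ) 1 ×ˢ B) := by
    ext z
    constructor
    · rintro ⟨s, hs, x, hx, rfl⟩
      exact ⟨(s, x), ⟨hs, hx⟩, rfl⟩
    · rintro ⟨⟨s, x⟩, ⟨hs, hx⟩, rfl⟩
      exact ⟨s, hs, x, hx, rfl⟩
  rw [this]
  exact (isCompact_Icc.prod hB).image
    (continuous_fst.smul (continuous_lift.comp continuous_snd))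

theorem glue_eq : (glue : (ι → ℝ) × ℝ → (ι ⊕ Unit → ℝ))
    = (MeasurableEquiv.sumPiEquivProdPi (fun _ : ι ⊕ Unit => ℝ)).symm ∘
      (Prod.map id (MeasurableEquiv.funUnique Unit ℝ).symm) := by
  funext p
  funext a
  rcases a with i | u
  · rfl
  · rfl

theorem measurePreserving_glue :
    MeasurePreserving (glue : (ι → ℝ) × ℝ → (ι ⊕ Unit → ℝ)) (volume.prod volume) volume := by
  rw [glue_eq]
  refine (volume_measurePreserving_sumPiEquivProdPi_symm (fun _ : ι ⊕ Unit => ℝ)).comp ?_
  exact (MeasurePreserving.id volume).prod (volume_preserving_funUnique Unit ℝ).symm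

theorem measurableEmbedding_glue :
    MeasurableEmbedding (glue : (ι → ℝ) × ℝ → (ι ⊕ Unit → ℝ)) := by
  rw [glue_eq]
  refine (MeasurableEquiv.measurableEmbedding _).comp ?_
  exact MeasurableEmbedding.id.prodMap (MeasurableEquiv.measurableEmbedding _)

theorem glue_mem_cone {B : Set (ι → ℝ)} (x : ι → ℝ) {s : ℝ} (hs : 0 < s) :
    glue (x, s) ∈ cone B ↔ s ≤ 1 ∧ x ∈ s • B := by
  constructor
  · rintro ⟨s', hs', x', hx', h⟩
    have h1 : s = s' := by
      have := congrFun h (Sum.inr ())
      simpa [glue, lift] using this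
    subst h1
    refine ⟨hs'.2, x', hx', ?_⟩
    funext i
    have := congrFun h (Sum.inl i)
    simpa [glue, lift] using this.symm
  · rintro ⟨h1, x', hx', rfl⟩
    refine ⟨s, ⟨hs.le, h1⟩, x', hx', ?_⟩
    funext a
    rcases a with i | u <;> simp [glue, lift]

theorem glue_not_mem_cone {B : Set (ι → ℝ)} (x : ι → ℝ) {s : ℝ} (hs : s < 0 ∨ 1 < s) :
    glue (x, s) ∉ cone B := by
  rintro ⟨s', hs', x', hx', h⟩
  have h1 : s = s' := by
    have := congrFun h (Sum.inr ())
    simpa [glue, lift] using this
  subst h1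
  rcases hs with h | h
  · exact absurd hs'.1 (not_le.mpr h)
  · exact absurd hs'.2 (not_le.mpr h)

theorem glue_smul (x : ι → ℝ) (s : ℝ) : glue (s • x, s) = s • lift x := by
  funext a
  rcases a with i | u <;> simp [glue, lift]

/-- Moments of homogeneous functions over the cone. -/
theorem moment_cone {B : Set (ι → ℝ)} (hB : IsCompact B) (q : (ι ⊕ Unit → ℝ) → ℝ)
    (hq : Continuous q) (D : ℕ) (hhom : ∀ s : ℝ, 0 < s → ∀ w, q (s • w) = s ^ D * q w) :
    ∫ z in cone B, q z
      = ((Fintype.card ι : ℝ) + D + 1)⁻¹ * ∫ x in B, q (lift x) := by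
  have hC := isCompact_cone hB
  have hCm : MeasurableSet (cone B) := hC.measurableSet
  have hint : IntegrableOn q (cone B) volume := hq.continuousOn.integrableOn_compact hC
  have hpre : MeasurableSet (glue ⁻¹' cone B : Set ((ι → ℝ) × ℝ)) :=
    measurePreserving_glue.measurable hCm
  have h1 : ∫ z in cone B, q z = ∫ p in glue ⁻¹' cone B, q (glue p) ∂(volume.prod volume) :=
    (measurePreserving_glue.setIntegral_preimage_emb measurableEmbedding_glue q (cone B)).symm
  have hint' : IntegrableOn (fun p => q (glue p)) (glue ⁻¹' cone B) (volume.prod volume) :=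
    (measurePreserving_glue.integrableOn_comp_preimage measurableEmbedding_glue).2 hint
  rw [h1, ← integral_indicator hpre]
  rw [integral_prod_symm _ (hint'.integrable_indicator hpre)]
  set I : ℝ := ∫ x in B, q (lift x) with hI
  set N : ℕ := Fintype.card ι + D with hN
  have hinner : ∀ s : ℝ, s ≠ 0 →
      ∫ x : ι → ℝ, (glue ⁻¹' cone B).indicator (fun p => q (glue p)) (x, s)
        = (Ioc (0 : ℝ) 1).indicator (fun s => s ^ N * I) s := by
    intro s hs0
    by_cases hs : s ∈ Ioc (0 : ℝ) 1
    · rw [indicator_of_mem hs]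
      have e1 : (fun x : ι → ℝ => (glue ⁻¹' cone B).indicator (fun p => q (glue p)) (x, s))
          = (s • B).indicator (fun x => q (glue (x, s))) := by
        funext x
        by_cases hx : x ∈ s • B
        · rw [indicator_of_mem hx, indicator_of_mem]
          exact (glue_mem_cone x hs.1).2 ⟨hs.2, hx⟩
        · rw [indicator_of_notMem hx, indicator_of_notMem]
          intro h
          exact hx ((glue_mem_cone x hs.1).1 h).2
      rw [e1, integral_indicator ((hB.smul s).measurableSet)]
      have e2 := Measure.setIntegral_comp_smul_of_pos (volume : Measure (ι → ℝ))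
        (fun x => q (glue (x, s))) B hs.1
      rw [Module.finrank_fintype_fun_eq_card] at e2
      have e3 : ∫ x in B, q (glue (s • x, s)) = s ^ D * I := by
        rw [hI, ← integral_const_mul]
        refine integral_congr_ae (Filter.Eventually.of_forall fun x => ?_)
        simp only [glue_smul, hhom s hs.1]
      rw [e3, smul_eq_mul] at e2
      have hspos : (0 : ℝ) < s ^ Fintype.card ι := pow_pos hs.1 _
      rw [hN, pow_add]
      field_simp at e2
      linarith
    · rw [indicator_of_notMem hs]
      have hs' : s < 0 ∨ 1 < s := by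
        by_contra hcon
        rw [not_or, not_lt, not_lt] at hcon
        exact hs ⟨lt_of_le_of_ne hcon.1 (Ne.symm hs0), hcon.2⟩
      have : (fun x : ι → ℝ => (glue ⁻¹' cone B).indicator (fun p => q (glue p)) (x, s))
          = fun _ => 0 := by
        funext x
        rw [indicator_of_notMem]
        exact glue_not_mem_cone x hs'
      rw [this]; simp
  have hae : (fun s : ℝ => ∫ x : ι → ℝ, (glue ⁻¹' cone B).indicator (fun p => q (glue p)) (x, s))
      =ᵐ[volume] (Ioc (0 : ℝ) 1).indicator (fun s => s ^ N * I) := by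
    have : ∀ᵐ s : ℝ ∂volume, s ≠ 0 := by
      rw [ae_iff]; simp
    filter_upwards [this] with s hs using hinner s hs
  rw [integral_congr_ae hae, integral_indicator measurableSet_Ioc,
    ← intervalIntegral.integral_of_le zero_le_one, intervalIntegral.integral_mul_const,
    integral_pow]
  simp only [one_pow, hN]
  push_cast
  rw [zero_pow (by omega)]
  field_simp
  ring

end Vale.Agent.Lib.P254
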