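import Vale.Agent.Lib.P254.Cov

namespace Vale.Agent.Lib.P254

open MeasureTheory Set
open scoped Pointwise

variable {ι : Type*} [Fintype ι]

theorem lift_combo (a b : ℝ) (hab : a + b = 1) (x y : ι → ℝ) :
    lift (a • x + b • y) = a • lift x + b • lift y := by
  funext c
  rcases c with i | u
  · simp [lift]
  · simp [lift, hab]

theorem convex_cone {B : Set (ι → ℝ)} (hB : Convex ℝ B) : Convex ℝ (cone B) := by
  rintro _ ⟨s₁, hs₁, x₁, hx₁, rfl⟩ _ ⟨s₂, hs₂, x₂, hx₂, rfl⟩ a b ha hb hab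
  set s := a * s₁ + b * s₂ with hs
  have hs0 : 0 ≤ s := add_nonneg (mul_nonneg ha hs₁.1) (mul_nonneg hb hs₂.1)
  have hs1 : s ≤ 1 := by
    have h1 : a * s₁ ≤ a := mul_le_of_le_one_right ha hs₁.2
    have h2 : b * s₂ ≤ b := mul_le_of_le_one_right hb hs₂.2
    linarith
  rcases hs0.eq_or_lt with h0 | hpos
  · have h1 : a * s₁ = 0 := by
      have := mul_nonneg ha hs₁.1; have := mul_nonneg hb hs₂.1; linarith
    have h2 : b * s₂ = 0 := by
      have := mul_nonneg ha hs₁.1; have := mul_nonneg hb hs₂.1; linarith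
    refine ⟨0, ⟨le_refl _, zero_le_one⟩, x₁, hx₁, ?_⟩
    rw [smul_smul, smul_smul, h1, h2]; simp
  · refine ⟨s, ⟨hs0, hs1⟩, (a * s₁ / s) • x₁ + (b * s₂ / s) • x₂, ?_, ?_⟩
    · apply hB hx₁ hx₂ (div_nonneg (mul_nonneg ha hs₁.1) hs0) (div_nonneg (mul_nonneg hb hs₂.1) hs0)
      rw [← add_div, ← hs, div_self hpos.ne']
    · rw [lift_combo _ _ (by rw [← add_div, ← hs, div_self hpos.ne'])]
      rw [smul_add, smul_smul, smul_smul, smul_smul, smul_smul]
      congr 2 <;> field_simp

theorem pyramid_eq_cone {B : Set (ι → ℝ)} (hB : Convex ℝ B) (hne : B.Nonempty) :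
    pyramid B = cone B := by
  unfold pyramid
  apply Subset.antisymm
  · apply convexHull_min _ (convex_cone hB)
    intro z hz
    rcases hz with rfl | ⟨x, hx, rfl⟩
    · obtain ⟨x, hx⟩ := hne
      exact ⟨0, ⟨le_refl _, zero_le_one⟩, x, hx, by simp⟩
    · exact ⟨1, ⟨zero_le_one, le_refl _⟩, x, hx, by simp⟩
  · rintro _ ⟨s, hs, x, hx, rfl⟩
    have h0 : (0 : ι ⊕ Unit → ℝ) ∈ convexHull ℝ (insert 0 (lift '' B)) :=
      subset_convexHull ℝ _ (mem_insert _ _)
    have h1 : lift x ∈ convexHull ℝ (insert 0 (lift '' B)) :=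
      subset_convexHull ℝ _ (mem_insert_of_mem _ ⟨x, hx, rfl⟩)
    have := (convex_convexHull ℝ (insert 0 (lift '' B))) h0 h1 (sub_nonneg.mpr hs.2) hs.1 (by ring)
    simpa using this

section Moments

variable {B : Set (ι → ℝ)}

theorem vol_cone (hB : IsCompact B) : vol (cone B) = ((Fintype.card ι : ℝ) + 1)⁻¹ * vol B := by
  rw [vol_eq_integral, vol_eq_integral]
  have := moment_cone hB (fun _ => (1 : ℝ)) continuous_const 0 (by intro s _ w; simp)
  simpa using this

theorem m1_cone (hB : IsCompact B) (a : ι ⊕ Unit) :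
    ∫ z in cone B, z a = ((Fintype.card ι : ℝ) + 2)⁻¹ * ∫ x in B, lift x a := by
  have := moment_cone hB (fun z => z a) (continuous_apply a) 1 (by intro s _ w; simp)
  rw [this]
  congr 2
  push_cast; ring

theorem m2_cone (hB : IsCompact B) (a b : ι ⊕ Unit) :
    ∫ z in cone B, z a * z b = ((Fintype.card ι : ℝ) + 3)⁻¹ * ∫ x in B, lift x a * lift x b := by
  have := moment_cone hB (fun z => z a * z b) ((continuous_apply a).mul (continuous_apply b)) 2
    (by intro s _ w; simp; ring)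
  rw [this]
  congr 2
  push_cast; ring

end Moments

section Det

variable [DecidableEq ι] {B : Set (ι → ℝ)}

/-- block form of the covariance matrix of the cone -/
theorem cov_cone (hB : IsConvexBody B) :
    covMatrix (cone B) = Matrix.fromBlocks
      ((((Fintype.card ι : ℝ) + 1) / ((Fintype.card ι : ℝ) + 3)) • covMatrix B
        + Matrix.of (fun i j => (((Fintype.card ι : ℝ) + 1) /
            (((Fintype.card ι : ℝ) + 3) * ((Fintype.card ι : ℝ) + 2) ^ 2)) * (centroid B i * centroid B j)))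
      (Matrix.of (fun i _ => (((Fintype.card ι : ℝ) + 1) /
            (((Fintype.card ι : ℝ) + 3) * ((Fintype.card ι : ℝ) + 2) ^ 2)) * centroid B i))
      (Matrix.of (fun _ j => (((Fintype.card ι : ℝ) + 1) /
            (((Fintype.card ι : ℝ) + 3) * ((Fintype.card ι : ℝ) + 2) ^ 2)) * centroid B j))
      ((((Fintype.card ι : ℝ) + 1) /
            (((Fintype.card ι : ℝ) + 3) * ((Fintype.card ι : ℝ) + 2) ^ 2)) • (1 : Matrix Unit Unit ℝ)) := by
  have hBc := hB.1
  have hV := vol_pos hB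
  set n : ℝ := (Fintype.card ι : ℝ) with hn
  have hn0 : 0 ≤ n := Nat.cast_nonneg _
  have hVC : vol (cone B) = (n + 1)⁻¹ * vol B := vol_cone hBc
  have hVC0 : vol (cone B) ≠ 0 := by rw [hVC]; positivity
  have hcl : ∀ i, centroid (cone B) (Sum.inl i) = (n + 1) / (n + 2) * centroid B i := by
    intro i
    unfold centroid
    rw [m1_cone hBc, hVC, ← hn]
    simp only [lift, Sum.elim_inl]
    field_simp
  have hcr : ∀ u, centroid (cone B) (Sum.inr u) = (n + 1) / (n + 2) := by
    intro u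
    unfold centroid
    rw [m1_cone hBc, hVC, ← hn]
    simp only [lift, Sum.elim_inr]
    rw [← vol_eq_integral]
    field_simp
  have hm1 : ∀ i, ∫ x in B, x i = vol B * centroid B i := by
    intro i; unfold centroid; field_simp
  have hm2 : ∀ i j, ∫ x in B, x i * x j = vol B * (covMatrix B i j + centroid B i * centroid B j) := by
    intro i j
    rw [cov_eq hBc hV.ne']
    field_simp
    ring
  ext a b
  rw [cov_eq (isCompact_cone hBc) hVC0, m2_cone hBc, hVC, ← hn]
  rcases a with i | u <;> rcases b with j | w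
  · simp only [lift, Sum.elim_inl, hcl, hm2, Matrix.fromBlocks_apply₁₁, Matrix.add_apply,
      Matrix.smul_apply, Matrix.of_apply, smul_eq_mul]
    field_simp
    ring
  · simp only [lift, Sum.elim_inl, Sum.elim_inr, hcl, hcr, mul_one, hm1, Matrix.fromBlocks_apply₁₂,
      Matrix.of_apply]
    field_simp
    ring
  · simp only [lift, Sum.elim_inl, Sum.elim_inr, hcl, hcr, one_mul, hm1, Matrix.fromBlocks_apply₂₁,
      Matrix.of_apply]
    field_simp
    ring
  · simp only [lift, Sum.elim_inr, hcr, mul_one, ← vol_eq_integral, Matrix.fromBlocks_apply₂₂,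
      Matrix.smul_apply, smul_eq_mul]
    have : (1 : Matrix Unit Unit ℝ) u w = 1 := by simp
    rw [this]
    field_simp
    ring

theorem det_cov_cone (hB : IsConvexBody B) :
    (covMatrix (cone B)).det
      = (((Fintype.card ι : ℝ) + 1) / (((Fintype.card ι : ℝ) + 3) * ((Fintype.card ι : ℝ) + 2) ^ 2))
        * ((((Fintype.card ι : ℝ) + 1) / ((Fintype.card ι : ℝ) + 3)) ^ Fintype.card ι
          * (covMatrix B).det) := by
  rw [cov_cone hB]
  set n : ℝ := (Fintype.card ι : ℝ) with hn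
  have hn0 : 0 ≤ n := Nat.cast_nonneg _
  set v : ℝ := (n + 1) / ((n + 3) * (n + 2) ^ 2) with hv
  have hv0 : v ≠ 0 := by rw [hv]; positivity
  letI : Invertible (v • (1 : Matrix Unit Unit ℝ)) :=
    ⟨v⁻¹ • 1, by rw [smul_mul_smul_comm, inv_mul_cancel₀ hv0]; simp,
      by rw [smul_mul_smul_comm, mul_inv_cancel₀ hv0]; simp⟩
  rw [Matrix.det_fromBlocks₂₂]
  have h1 : (v • (1 : Matrix Unit Unit ℝ)).det = v := by simp
  have h2 : ⅟(v • (1 : Matrix Unit Unit ℝ)) = v⁻¹ • 1 := rfl
  rw [h1, h2]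
  congr 1
  rw [← Matrix.det_smul]
  congr 1
  ext i j
  simp only [Matrix.sub_apply, Matrix.add_apply, Matrix.smul_apply, Matrix.of_apply, smul_eq_mul,
    Matrix.mul_apply, Finset.univ_unique, Finset.sum_singleton, Matrix.one_apply_eq, mul_one]
  field_simp
  ring

end Det

end Vale.Agent.Lib.P254
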